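import Crest.Agent.Helper67.Tetra.Transport

/-!
# Assembly of S0327 from its inputs (row 211, helper67)

`similar_both_clauses` : if `K₀ ⊆ E3` has all shadows of area `≥ m₀ > 0` and is covered by
triangular cylinders of total Gram area `≤ m₀/2 - γ` (`γ > 0`), then every similar copy
`Kw = (c • Q · + b) '' K₀` satisfies both clauses of S0327.
-/

set_option autoImplicit false
open MeasureTheory
open scoped ENNReal

namespace Crest.Agent.Helper67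

theorem similar_both_clauses (K₀ : Set E3) (m₀ : ℝ) (hm₀ : 0 < m₀)
    (hcov : ∃ (k : ℕ) (u p q r : Fin k → E3) (γ : ℝ), 0 < γ ∧ (∀ i, ‖u i‖ = 1) ∧
      (∀ i, inner ℝ (p i) (u i) = 0 ∧ inner ℝ (q i) (u i) = 0 ∧ inner ℝ (r i) (u i) = 0) ∧
      K₀ ⊆ ⋃ i, {x : E3 | ∃ b ∈ convexHull ℝ {p i, q i, r i}, ∃ t : ℝ, x = b + t • u i} ∧
      ∑ i, triArea (p i) (q i) (r i) ≤ m₀ / 2 - γ)
    (hshadow : ∀ v : E3, ‖v‖ = 1 →
      m₀ ≤ (μHE[2] ((fun y => y - inner ℝ y v • v) '' K₀)).toReal)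
    (Kw : Set E3) (c : ℝ) (hc : 0 < c)
    (hsim : ∃ (Q : E3 ≃ₗᵢ[ℝ] E3) (b : E3), Kw = (fun x => c • Q x + b) '' K₀) :
    (∃ (k : ℕ) (u c a b : Fin k → EuclideanSpace ℝ (Fin 3)),
      (∀ i, ‖u i‖ = 1) ∧
      (∀ i, inner ℝ (c i) (u i) = 0 ∧ inner ℝ (a i) (u i) = 0 ∧ inner ℝ (b i) (u i) = 0) ∧
      Kw ⊆ ⋃ i, {x : EuclideanSpace ℝ (Fin 3) |
        ∃ s ∈ Set.Icc (0 : ℝ) 1, ∃ t ∈ Set.Icc (0 : ℝ) 1, ∃ τ : ℝ,
          x = c i + s • a i + t • b i + τ • u i} ∧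
      (∃ δ : ℝ, 0 < δ ∧ ∀ v : EuclideanSpace ℝ (Fin 3), ‖v‖ = 1 →
        (∑ i, (μHE[2] {x : EuclideanSpace ℝ (Fin 3) |
            ∃ s ∈ Set.Icc (0 : ℝ) 1, ∃ t ∈ Set.Icc (0 : ℝ) 1,
              x = c i + s • a i + t • b i}).toReal) + δ ≤
          (μHE[2] ((fun y => y - inner ℝ y v • v) '' Kw)).toReal / 2) ∧
      ∑ i, (μHE[2] {x : EuclideanSpace ℝ (Fin 3) |
            ∃ s ∈ Set.Icc (0 : ℝ) 1, ∃ t ∈ Set.Icc (0 : ℝ) 1,
              x = c i + s • a i + t • b i}).toReal /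
          (μHE[2] ((fun y => y - inner ℝ y (u i) • u i) '' Kw)).toReal < 1 / 2) ∧
    (∃ (k : ℕ) (u : Fin k → EuclideanSpace ℝ (Fin 3))
      (B : Fin k → Set (EuclideanSpace ℝ (Fin 3))),
      (∀ i, ‖u i‖ = 1) ∧
      (∀ i, Bornology.IsBounded (B i) ∧ ∃ O : Set (EuclideanSpace ℝ (Fin 3)), IsOpen O ∧
        B i = O ∩ {x | inner ℝ x (u i) = 0}) ∧
      Kw ⊆ ⋃ i, {x : EuclideanSpace ℝ (Fin 3) | ∃ y ∈ B i, ∃ τ : ℝ, x = y + τ • u i} ∧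
      (∃ δ : ℝ, 0 < δ ∧ ∀ v : EuclideanSpace ℝ (Fin 3), ‖v‖ = 1 →
        (∑ i, (μHE[2] (B i)).toReal) + δ ≤
          (μHE[2] ((fun y => y - inner ℝ y v • v) '' Kw)).toReal / 2) ∧
      ∑ i, (μHE[2] (B i)).toReal /
          (μHE[2] ((fun y => y - inner ℝ y (u i) • u i) '' Kw)).toReal < 1 / 2) := by
  obtain ⟨Q, b₀, rfl⟩ := hsim
  obtain ⟨k, u, p, q, r, γ, hγ, hu, hperp, hcover, hsum⟩ := hcov
  obtain ⟨u', p', q', r', hu', hperp', hcover', harea'⟩ :=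
    tri_cover_similarity Q b₀ c hc K₀ k u p q r hu hperp hcover
  have hc2 : 0 < c ^ 2 := by positivity
  refine both_of_tri_cover _ (c ^ 2 * m₀) (c ^ 2 * γ) (by positivity) (by positivity) ?_
    k u' p' q' r' hu' hperp' hcover' ?_
  · intro v' hv'
    have h1 := shadow_similarity Q b₀ c hc K₀ (Q.symm v')
    rw [Q.apply_symm_apply] at h1
    rw [h1]
    have h2 : ‖Q.symm v'‖ = 1 := by rw [Q.symm.norm_map]; exact hv'
    have h3 := hshadow (Q.symm v') h2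
    exact mul_le_mul_of_nonneg_left h3 hc2.le
  · simp only [harea']
    rw [← Finset.mul_sum]
    have := mul_le_mul_of_nonneg_left hsum hc2.le
    linarith

end Crest.Agent.Helper67
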