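import Crest.Agent.Helper67.Tetra.Assemble
import Crest.Agent.Helper88.Tetra.Similarity
import Crest.Agent.Helper15.Shadow

/-!
# S0327 from a cover of the standard tetrahedron by triangular cylinders (row 211, helper67)

`S0327_of_gram_cover` : the statement of S0327 (verbatim), given a cover of the standard
tetrahedron `Ktet` by triangular cylinders of total Gram area `≤ √2/2 - γ`, `γ > 0`.

`S0327_of_measure_cover` : the same, with the total area measured by `μHE[2]`.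

Inputs used: `Crest.Agent.Helper88.exists_similarity_hull` (regular tetrahedra are similar to
`Ktet`), `Crest.Agent.Helper15.shadow_toReal_ge'` (every shadow of `Ktet` has area `≥ √2`),
`Crest.Agent.Helper29.euclideanHausdorff_triangle_toReal` (area of a triangle).
-/

set_option autoImplicit false
open MeasureTheory
open scoped ENNReal

namespace Crest.Agent.Helper67

/-- **S0327 from a Gram-area cover of the standard tetrahedron.** -/
theorem S0327_of_gram_cover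
    (hcov : ∃ (k : ℕ) (u p q r : Fin k → E3) (γ : ℝ), 0 < γ ∧ (∀ i, ‖u i‖ = 1) ∧
      (∀ i, inner ℝ (p i) (u i) = 0 ∧ inner ℝ (q i) (u i) = 0 ∧ inner ℝ (r i) (u i) = 0) ∧
      convexHull ℝ ({!₂[1, 0, 0], !₂[-1, 0, 0], !₂[0, 1, Real.sqrt 2],
          !₂[0, -1, Real.sqrt 2]} : Set E3) ⊆
        ⋃ i, {x : E3 | ∃ b ∈ convexHull ℝ {p i, q i, r i}, ∃ t : ℝ, x = b + t • u i} ∧
      ∑ i, triArea (p i) (q i) (r i) ≤ Real.sqrt 2 / 2 - γ)
    (w : Fin 4 → EuclideanSpace ℝ (Fin 3)) (ℓ : ℝ) (hℓ : 0 < ℓ)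
    (hw : ∀ i j, i ≠ j → dist (w i) (w j) = ℓ) :
    (∃ (k : ℕ) (u c a b : Fin k → EuclideanSpace ℝ (Fin 3)),
      (∀ i, ‖u i‖ = 1) ∧
      (∀ i, inner ℝ (c i) (u i) = 0 ∧ inner ℝ (a i) (u i) = 0 ∧ inner ℝ (b i) (u i) = 0) ∧
      convexHull ℝ (Set.range w) ⊆ ⋃ i, {x : EuclideanSpace ℝ (Fin 3) |
        ∃ s ∈ Set.Icc (0 : ℝ) 1, ∃ t ∈ Set.Icc (0 : ℝ) 1, ∃ τ : ℝ,
          x = c i + s • a i + t • b i + τ • u i} ∧
      (∃ δ : ℝ, 0 < δ ∧ ∀ v : EuclideanSpace ℝ (Fin 3), ‖v‖ = 1 →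
        (∑ i, (μHE[2] {x : EuclideanSpace ℝ (Fin 3) |
            ∃ s ∈ Set.Icc (0 : ℝ) 1, ∃ t ∈ Set.Icc (0 : ℝ) 1,
              x = c i + s • a i + t • b i}).toReal) + δ ≤
          (μHE[2] ((fun y => y - inner ℝ y v • v) '' convexHull ℝ (Set.range w))).toReal / 2) ∧
      ∑ i, (μHE[2] {x : EuclideanSpace ℝ (Fin 3) |
            ∃ s ∈ Set.Icc (0 : ℝ) 1, ∃ t ∈ Set.Icc (0 : ℝ) 1,
              x = c i + s • a i + t • b i}).toReal /
          (μHE[2] ((fun y => y - inner ℝ y (u i) • u i) ''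
            convexHull ℝ (Set.range w))).toReal < 1 / 2) ∧
    (∃ (k : ℕ) (u : Fin k → EuclideanSpace ℝ (Fin 3))
      (B : Fin k → Set (EuclideanSpace ℝ (Fin 3))),
      (∀ i, ‖u i‖ = 1) ∧
      (∀ i, Bornology.IsBounded (B i) ∧ ∃ O : Set (EuclideanSpace ℝ (Fin 3)), IsOpen O ∧
        B i = O ∩ {x | inner ℝ x (u i) = 0}) ∧
      convexHull ℝ (Set.range w) ⊆
        ⋃ i, {x : EuclideanSpace ℝ (Fin 3) | ∃ y ∈ B i, ∃ τ : ℝ, x = y + τ • u i} ∧
      (∃ δ : ℝ, 0 < δ ∧ ∀ v : EuclideanSpace ℝ (Fin 3), ‖v‖ = 1 →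
        (∑ i, (μHE[2] (B i)).toReal) + δ ≤
          (μHE[2] ((fun y => y - inner ℝ y v • v) '' convexHull ℝ (Set.range w))).toReal / 2) ∧
      ∑ i, (μHE[2] (B i)).toReal /
          (μHE[2] ((fun y => y - inner ℝ y (u i) • u i) ''
            convexHull ℝ (Set.range w))).toReal < 1 / 2) :=
  similar_both_clauses _ (Real.sqrt 2) (by positivity) hcov
    (fun v hv => Crest.Agent.Helper15.shadow_toReal_ge' v hv) _ (ℓ / 2) (by positivity)
    (Crest.Agent.Helper88.exists_similarity_hull w ℓ hℓ hw)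

/-- Gram area = `μHE[2]`-area of a triangle (from helper29's triangle formula). -/
theorem triArea_eq_measure (p q r : E3) :
    triArea p q r = (μHE[2] (convexHull ℝ ({p, q, r} : Set E3))).toReal :=
  (Crest.Agent.Helper29.euclideanHausdorff_triangle_toReal p q r).symm

/-- Adapter: a cover whose total area is measured by `μHE[2]` gives a Gram-area cover. -/
theorem gram_cover_of_measure_cover (K : Set E3) (A : ℝ)
    (hcov : ∃ (k : ℕ) (u p q r : Fin k → E3), (∀ i, ‖u i‖ = 1) ∧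
      (∀ i, inner ℝ (p i) (u i) = 0 ∧ inner ℝ (q i) (u i) = 0 ∧ inner ℝ (r i) (u i) = 0) ∧
      K ⊆ ⋃ i, {x : E3 | ∃ b ∈ convexHull ℝ {p i, q i, r i}, ∃ t : ℝ, x = b + t • u i} ∧
      ∑ i, (μHE[2] (convexHull ℝ ({p i, q i, r i} : Set E3))).toReal ≤ A) :
    ∃ (k : ℕ) (u p q r : Fin k → E3), (∀ i, ‖u i‖ = 1) ∧
      (∀ i, inner ℝ (p i) (u i) = 0 ∧ inner ℝ (q i) (u i) = 0 ∧ inner ℝ (r i) (u i) = 0) ∧
      K ⊆ ⋃ i, {x : E3 | ∃ b ∈ convexHull ℝ {p i, q i, r i}, ∃ t : ℝ, x = b + t • u i} ∧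
      ∑ i, triArea (p i) (q i) (r i) ≤ A := by
  obtain ⟨k, u, p, q, r, hu, hperp, hcover, hsum⟩ := hcov
  refine ⟨k, u, p, q, r, hu, hperp, hcover, ?_⟩
  simp only [triArea_eq_measure]
  exact hsum

end Crest.Agent.Helper67
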