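import Mathlib

/-!
# Planar pieces of `EuclideanSpace ℝ (Fin 3)` and their `μHE[2]`-area (row 211, helper67)

* `gram a b` : the Gram determinant `‖a‖²‖b‖² − ⟪a,b⟫²`;
* `exists_plane_isometry` : for a unit vector `u` a linear isometry `E2 → E3` with range `u^⊥`;
* `pgram c a b` : the (statement shaped) parallelogram `{c + s a + t b : s, t ∈ [0,1]}`;
* `pgram_area` : its `μHE[2]`-measure is `√(gram a b)` when `a, b ⊥ u`;
* `exists_open_base` : a compact subset of the plane `u^⊥` is contained in a bounded relatively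
  open subset of that plane of almost the same area.
-/

set_option autoImplicit false
open MeasureTheory
open scoped ENNReal

namespace Crest.Agent.Helper67

/-- Euclidean 3-space. -/
abbrev E3 := EuclideanSpace ℝ (Fin 3)
/-- Euclidean plane. -/
abbrev E2 := EuclideanSpace ℝ (Fin 2)

/-- Gram determinant of two vectors. -/
noncomputable def gram {E : Type*} [NormedAddCommGroup E] [InnerProductSpace ℝ E] (a b : E) : ℝ :=
  ‖a‖ ^ 2 * ‖b‖ ^ 2 - (inner ℝ a b) ^ 2

theorem gram_nonneg {E : Type*} [NormedAddCommGroup E] [InnerProductSpace ℝ E] (a b : E) :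
    0 ≤ gram a b := by
  unfold gram
  have h := abs_real_inner_le_norm a b
  have h2 : (inner ℝ a b) ^ 2 ≤ (‖a‖ * ‖b‖) ^ 2 := by
    rw [← sq_abs (inner ℝ a b)]
    exact pow_le_pow_left₀ (abs_nonneg _) h 2
  nlinarith [h2]

/-- The parallelogram `c + [0,1] a + [0,1] b`, in the shape used by the statements of row 211. -/
def pgram (c a b : E3) : Set E3 :=
  {x : E3 | ∃ s ∈ Set.Icc (0 : ℝ) 1, ∃ t ∈ Set.Icc (0 : ℝ) 1, x = c + s • a + t • b}

/-- For a unit vector `u` of `E3` there is a linear isometry of the plane onto `u^⊥`. -/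
theorem exists_plane_isometry (u : E3) (hu : ‖u‖ = 1) :
    ∃ ι : E2 →ₗᵢ[ℝ] E3, Set.range ι = {x : E3 | inner ℝ x u = 0} := by
  have hu0 : u ≠ 0 := by
    intro h
    simp [h] at hu
  have : Fact (Module.finrank ℝ E3 = 2 + 1) := ⟨by simp⟩
  let b := OrthonormalBasis.fromOrthogonalSpanSingleton (𝕜 := ℝ) 2 hu0
  refine ⟨(Submodule.subtypeₗᵢ _).comp b.repr.symm.toLinearIsometry, ?_⟩
  ext x
  simp only [Set.mem_range, Set.mem_ofPred_eq]
  constructor
  · rintro ⟨z, rfl⟩
    have h := (b.repr.symm z).2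
    rw [Submodule.mem_orthogonal_singleton_iff_inner_left] at h
    exact h
  · intro hx
    have hx' : x ∈ (ℝ ∙ u)ᗮ := Submodule.mem_orthogonal_singleton_iff_inner_left.mpr hx
    exact ⟨b.repr ⟨x, hx'⟩, by simp⟩

/-- `μHE[2]` of a subset of the range of a linear isometry `E2 → E3` is the planar volume of its
preimage. -/
theorem euclideanHausdorff_eq_volume_preimage (ι : E2 →ₗᵢ[ℝ] E3) (S : Set E3)
    (hS : S ⊆ Set.range ι) : μHE[2] S = volume (ι ⁻¹' S) := by
  have h1 : ι '' (ι ⁻¹' S) = S := Set.image_preimage_eq_of_subset hS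
  conv_lhs => rw [← h1]
  rw [ι.isometry.euclideanHausdorffMeasure_image,
    EuclideanSpace.euclideanHausdorffMeasure_eq_volume]

/-- `μHE[2]` of the image of a planar set under a linear isometry `E2 → E3`. -/
theorem euclideanHausdorff_image_isometry (ι : E2 →ₗᵢ[ℝ] E3) (T : Set E2) :
    μHE[2] (ι '' T) = volume T := by
  rw [ι.isometry.euclideanHausdorffMeasure_image,
    EuclideanSpace.euclideanHausdorffMeasure_eq_volume]

/-- translation invariance of `μHE[2]` on `E3`, in image form. -/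
theorem euclideanHausdorff_image_add_left (c : E3) (S : Set E3) :
    μHE[2] ((fun x => c + x) '' S) = μHE[2] S :=
  (isometry_add_left c).euclideanHausdorffMeasure_image S

/-- The planar parallelogram spanned by `a b : E2`. -/
def pgram2 (a b : E2) : Set E2 :=
  {z : E2 | ∃ s ∈ Set.Icc (0 : ℝ) 1, ∃ t ∈ Set.Icc (0 : ℝ) 1, z = s • a + t • b}

theorem pgram2_eq_parallelepiped (a b : E2) : pgram2 a b = parallelepiped ![a, b] := by
  ext z
  rw [mem_parallelepiped_iff]
  constructor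
  · rintro ⟨s, hs, t, ht, rfl⟩
    refine ⟨![s, t], ?_, ?_⟩
    · constructor
      · intro i
        fin_cases i
        · exact hs.1
        · exact ht.1
      · intro i
        fin_cases i
        · exact hs.2
        · exact ht.2
    · simp [Fin.sum_univ_two]
  · rintro ⟨τ, hτ, rfl⟩
    refine ⟨τ 0, ⟨hτ.1 0, hτ.2 0⟩, τ 1, ⟨hτ.1 1, hτ.2 1⟩, ?_⟩
    simp [Fin.sum_univ_two]

theorem volume_pgram2 (a b : E2) :
    volume (pgram2 a b) = ENNReal.ofReal |a 0 * b 1 - a 1 * b 0| := by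
  rw [pgram2_eq_parallelepiped, ← (EuclideanSpace.basisFun (Fin 2) ℝ).addHaar_eq_volume,
    Measure.addHaar_parallelepiped]
  congr 2
  rw [Module.Basis.det_apply, Matrix.det_fin_two]
  simp [Module.Basis.toMatrix_apply]
  ring

theorem gram_E2 (a b : E2) : gram a b = (a 0 * b 1 - a 1 * b 0) ^ 2 := by
  unfold gram
  rw [EuclideanSpace.norm_eq, EuclideanSpace.norm_eq, Real.sq_sqrt (by positivity),
    Real.sq_sqrt (by positivity)]
  simp only [Fin.sum_univ_two, Real.norm_eq_abs, sq_abs, PiLp.inner_apply, RCLike.inner_apply,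
    conj_trivial]
  ring

theorem gram_map (ι : E2 →ₗᵢ[ℝ] E3) (a b : E2) : gram (ι a) (ι b) = gram a b := by
  unfold gram
  rw [ι.norm_map, ι.norm_map, ι.inner_map_map]

theorem pgram_eq_image (ι : E2 →ₗᵢ[ℝ] E3) (c : E3) (a b : E2) :
    pgram c (ι a) (ι b) = (fun x => c + x) '' (ι '' pgram2 a b) := by
  ext x
  simp only [pgram, pgram2, Set.mem_ofPred_eq, Set.mem_image]
  constructor
  · rintro ⟨s, hs, t, ht, rfl⟩
    refine ⟨ι (s • a + t • b), ⟨s • a + t • b, ⟨s, hs, t, ht, rfl⟩, rfl⟩, ?_⟩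
    simp [add_assoc]
  · rintro ⟨y, ⟨z, ⟨s, hs, t, ht, rfl⟩, rfl⟩, rfl⟩
    refine ⟨s, hs, t, ht, ?_⟩
    simp [add_assoc]

/-- **Area of a parallelogram** lying in a plane `u^⊥` of `E3`. -/
theorem pgram_area (u : E3) (hu : ‖u‖ = 1) (c a b : E3) (ha : inner ℝ a u = 0)
    (hb : inner ℝ b u = 0) : μHE[2] (pgram c a b) = ENNReal.ofReal (Real.sqrt (gram a b)) := by
  obtain ⟨ι, hι⟩ := exists_plane_isometry u hu
  have ha' : a ∈ Set.range ι := by rw [hι]; exact ha
  have hb' : b ∈ Set.range ι := by rw [hι]; exact hb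
  obtain ⟨a', rfl⟩ := ha'
  obtain ⟨b', rfl⟩ := hb'
  rw [pgram_eq_image, euclideanHausdorff_image_add_left, euclideanHausdorff_image_isometry,
    volume_pgram2, gram_map, gram_E2, Real.sqrt_sq_eq_abs]

theorem pgram_area_toReal (u : E3) (hu : ‖u‖ = 1) (c a b : E3) (ha : inner ℝ a u = 0)
    (hb : inner ℝ b u = 0) : (μHE[2] (pgram c a b)).toReal = Real.sqrt (gram a b) := by
  rw [pgram_area u hu c a b ha hb, ENNReal.toReal_ofReal (Real.sqrt_nonneg _)]

theorem isCompact_pgram (c a b : E3) : IsCompact (pgram c a b) := by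
  have h : pgram c a b =
      (fun st : ℝ × ℝ => c + st.1 • a + st.2 • b) '' (Set.Icc (0 : ℝ) 1 ×ˢ Set.Icc (0 : ℝ) 1) := by
    ext x
    simp only [pgram, Set.mem_ofPred_eq, Set.mem_image, Set.mem_prod, Prod.exists]
    constructor
    · rintro ⟨s, hs, t, ht, rfl⟩
      exact ⟨s, t, ⟨hs, ht⟩, rfl⟩
    · rintro ⟨s, t, ⟨hs, ht⟩, rfl⟩
      exact ⟨s, hs, t, ht, rfl⟩
  rw [h]
  refine (isCompact_Icc.prod isCompact_Icc).image ?_
  fun_prop

theorem pgram_subset_perp (u c a b : E3) (hc : inner ℝ c u = 0) (ha : inner ℝ a u = 0)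
    (hb : inner ℝ b u = 0) : ∀ x ∈ pgram c a b, inner ℝ x u = 0 := by
  rintro x ⟨s, -, t, -, rfl⟩
  simp [inner_add_left, inner_smul_left, hc, ha, hb]

/-- **Open base lemma.**  A compact subset `S` of the plane `u^⊥` of `E3` is contained in a
bounded relatively open subset `O ∩ u^⊥` of that plane whose area exceeds that of `S` by at most
`θ`. -/
theorem exists_open_base (u : E3) (hu : ‖u‖ = 1) (S : Set E3) (hS : IsCompact S)
    (hSu : ∀ x ∈ S, inner ℝ x u = 0) (θ : ℝ) (hθ : 0 < θ) :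
    ∃ O : Set E3, IsOpen O ∧ Bornology.IsBounded (O ∩ {x : E3 | inner ℝ x u = 0}) ∧
      S ⊆ O ∩ {x : E3 | inner ℝ x u = 0} ∧ μHE[2] (O ∩ {x : E3 | inner ℝ x u = 0}) ≠ ⊤ ∧
      (μHE[2] (O ∩ {x : E3 | inner ℝ x u = 0})).toReal ≤ (μHE[2] S).toReal + θ := by
  obtain ⟨ι, hι⟩ := exists_plane_isometry u hu
  have hSr : S ⊆ Set.range ι := by
    intro x hx
    rw [hι]
    exact hSu x hx
  -- the planar copy of `S`
  set S' : Set E2 := ι ⁻¹' S with hS'
  have hS'c : IsCompact S' :=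
    (ι.isometry.isClosedEmbedding).isCompact_preimage hS
  have hS'fin : volume S' ≠ ⊤ := hS'c.measure_lt_top.ne
  have hθ' : ENNReal.ofReal θ ≠ 0 := by
    simp [hθ]
  obtain ⟨U, hSU, hUo, hUlt⟩ := S'.exists_isOpen_lt_add hS'fin hθ'
  obtain ⟨R, hR⟩ := hS'c.isBounded.subset_ball (0 : E2)
  set U' : Set E2 := U ∩ Metric.ball 0 R with hU'
  have hU'o : IsOpen U' := hUo.inter Metric.isOpen_ball
  have hSU' : S' ⊆ U' := Set.subset_inter hSU hR
  have hU'le : volume U' ≤ volume S' + ENNReal.ofReal θ :=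
    (measure_mono Set.inter_subset_left).trans hUlt.le
  have hU'fin : volume U' ≠ ⊤ := by
    refine ne_top_of_le_ne_top ?_ hU'le
    exact ENNReal.add_ne_top.mpr ⟨hS'fin, ENNReal.ofReal_ne_top⟩
  -- the retraction `E3 → E2`
  set g : E3 →L[ℝ] E2 := ContinuousLinearMap.adjoint ι.toContinuousLinearMap with hg
  have hgι : ∀ z : E2, g (ι z) = z := by
    intro z
    have h := (ContinuousLinearMap.norm_map_iff_adjoint_comp_self ι.toContinuousLinearMap).mp
      (fun x => ι.norm_map x)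
    have h2 := congrArg (fun f : E2 →L[ℝ] E2 => f z) h
    exact h2
  have hOeq : (g ⁻¹' U') ∩ {x : E3 | inner ℝ x u = 0} = ι '' U' := by
    ext x
    simp only [Set.mem_inter_iff, Set.mem_preimage, Set.mem_ofPred_eq, Set.mem_image]
    constructor
    · rintro ⟨hx1, hx2⟩
      have hx3 : x ∈ Set.range ι := by rw [hι]; exact hx2
      obtain ⟨z, rfl⟩ := hx3
      rw [hgι] at hx1
      exact ⟨z, hx1, rfl⟩
    · rintro ⟨z, hz, rfl⟩
      refine ⟨by rw [hgι]; exact hz, ?_⟩
      have : ι z ∈ Set.range ι := ⟨z, rfl⟩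
      rw [hι] at this
      exact this
  have hmeas : μHE[2] (ι '' U') = volume U' := euclideanHausdorff_image_isometry ι U'
  have hSmeas : μHE[2] S = volume S' := euclideanHausdorff_eq_volume_preimage ι S hSr
  refine ⟨g ⁻¹' U', hU'o.preimage g.continuous, ?_, ?_, ?_, ?_⟩
  · rw [hOeq]
    have hb : Bornology.IsBounded U' := Metric.isBounded_ball.subset Set.inter_subset_right
    exact (ι.isometry.lipschitz.isBounded_image hb)
  · rw [hOeq]
    intro x hx
    obtain ⟨z, rfl⟩ := hSr hx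
    exact ⟨z, hSU' hx, rfl⟩
  · rw [hOeq, hmeas]
    exact hU'fin
  · rw [hOeq, hmeas, hSmeas]
    have h1 : (volume U').toReal ≤ (volume S' + ENNReal.ofReal θ).toReal :=
      ENNReal.toReal_mono (ENNReal.add_ne_top.mpr ⟨hS'fin, ENNReal.ofReal_ne_top⟩) hU'le
    rw [ENNReal.toReal_add hS'fin ENNReal.ofReal_ne_top, ENNReal.toReal_ofReal hθ.le] at h1
    exact h1

end Crest.Agent.Helper67
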