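import Crest.Agent.Helper67.Tetra.Plane

/-!
# Triangles, strips and parallelograms (row 211, helper67)

* `triArea p q r` : Gram area of a triangle (half the square root of the Gram determinant);
* `mem_convexHull_triple` : explicit description of `convexHull ℝ {p, q, r}`;
* `triangle_subset_strips` : a triangle is contained in `n` parallelograms of total Gram area
  `(1 + 1/n) · triArea`;
* `pgram_cover_of_tri_cover` : a cover by triangular cylinders gives a cover by parallelogram
  cylinders of almost the same total (Gram) area.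
-/

set_option autoImplicit false
open MeasureTheory
open scoped ENNReal

namespace Crest.Agent.Helper67

/-- Gram area of the triangle `p q r`. -/
noncomputable def triArea {E : Type*} [NormedAddCommGroup E] [InnerProductSpace ℝ E]
    (p q r : E) : ℝ :=
  Real.sqrt (‖q - p‖ ^ 2 * ‖r - p‖ ^ 2 - (inner ℝ (q - p) (r - p)) ^ 2) / 2

theorem triArea_eq {E : Type*} [NormedAddCommGroup E] [InnerProductSpace ℝ E] (p q r : E) :
    triArea p q r = Real.sqrt (gram (q - p) (r - p)) / 2 := rfl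

theorem triArea_nonneg {E : Type*} [NormedAddCommGroup E] [InnerProductSpace ℝ E] (p q r : E) :
    0 ≤ triArea p q r := by
  unfold triArea
  positivity

/-- Explicit description of a triangle. -/
theorem mem_convexHull_triple {E : Type*} [AddCommGroup E] [Module ℝ E] (p q r x : E) :
    x ∈ convexHull ℝ {p, q, r} ↔
      ∃ s t : ℝ, 0 ≤ s ∧ 0 ≤ t ∧ s + t ≤ 1 ∧ x = p + s • (q - p) + t • (r - p) := by
  constructor
  · intro hx
    rw [convexHull_insert (Set.insert_nonempty q {r}), convexHull_pair, mem_convexJoin] at hx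
    obtain ⟨a, ha, y, hy, hxy⟩ := hx
    rw [Set.mem_singleton_iff] at ha
    subst ha
    obtain ⟨c, d, hc, hd, hcd, rfl⟩ := hy
    obtain ⟨e, f, he, hf, hef, rfl⟩ := hxy
    refine ⟨f * c, f * d, mul_nonneg hf hc, mul_nonneg hf hd, ?_, ?_⟩
    · have : f * c + f * d = f := by rw [← mul_add, hcd, mul_one]
      linarith
    · have he' : e = 1 - f := by linarith
      have hc' : c = 1 - d := by linarith
      subst he' hc'
      module
  · rintro ⟨s, t, hs, ht, hst, rfl⟩
    have h := (convex_convexHull ℝ ({p, q, r} : Set E)).sum_mem (t := Finset.univ)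
      (w := ![1 - s - t, s, t]) (z := ![p, q, r]) ?_ ?_ ?_
    · have h2 : ∑ i : Fin 3, (![1 - s - t, s, t] i) • (![p, q, r] i) =
          p + s • (q - p) + t • (r - p) := by
        rw [Fin.sum_univ_three]
        simp only [Matrix.cons_val_zero, Matrix.cons_val_one, Matrix.cons_val_two,
          Matrix.head_cons, Matrix.tail_cons]
        module
      rw [← h2]
      exact h
    · intro i _
      fin_cases i
      · simp; linarith
      · simpa using hs
      · simpa using ht
    · rw [Fin.sum_univ_three]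
      simp
      ring
    · intro i _
      apply subset_convexHull
      fin_cases i <;> simp

/-- Gram determinant is unchanged by a shear. -/
theorem gram_sub_left {E : Type*} [NormedAddCommGroup E] [InnerProductSpace ℝ E] (x y : E) :
    gram (y - x) x = gram x y := by
  unfold gram
  rw [@norm_sub_sq_real, inner_sub_left, real_inner_self_eq_norm_sq, real_inner_comm x y]
  ring

theorem gram_smul_smul {E : Type*} [NormedAddCommGroup E] [InnerProductSpace ℝ E] (A B : ℝ)
    (x y : E) : gram (A • x) (B • y) = (A * B) ^ 2 * gram x y := by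
  unfold gram
  rw [norm_smul, norm_smul, inner_smul_left, inner_smul_right, Real.norm_eq_abs,
    Real.norm_eq_abs]
  simp only [conj_trivial]
  have hA : |A| ^ 2 = A ^ 2 := sq_abs A
  have hB : |B| ^ 2 = B ^ 2 := sq_abs B
  calc (|A| * ‖x‖) ^ 2 * (|B| * ‖y‖) ^ 2 - (A * (B * inner ℝ x y)) ^ 2
      = |A| ^ 2 * |B| ^ 2 * (‖x‖ ^ 2 * ‖y‖ ^ 2) - A ^ 2 * B ^ 2 * (inner ℝ x y) ^ 2 := by ring
    _ = (A * B) ^ 2 * (‖x‖ ^ 2 * ‖y‖ ^ 2 - inner ℝ x y ^ 2) := by rw [hA, hB]; ring

/-- the `j`-th strip parallelogram of the triangle `p q r` cut into `n` strips. -/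
theorem sqrt_gram_strip (p q r : E3) (n : ℕ) (j : ℕ) (hn : 0 < n) :
    Real.sqrt (gram ((((j : ℝ) + 1) / n) • (r - q)) ((1 / (n : ℝ)) • (q - p))) =
      ((j : ℝ) + 1) / (n : ℝ) ^ 2 * (2 * triArea p q r) := by
  have hn' : (0 : ℝ) < n := by exact_mod_cast hn
  have h1 : gram (r - q) (q - p) = gram (q - p) (r - p) := by
    have : r - q = (r - p) - (q - p) := by abel
    rw [this, gram_sub_left]
  rw [gram_smul_smul, h1, Real.sqrt_mul (sq_nonneg _), Real.sqrt_sq (by positivity), triArea_eq]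
  field_simp

theorem sum_range_succ_cast (n : ℕ) :
    ∑ j ∈ Finset.range n, ((j : ℝ) + 1) = (n : ℝ) * (n + 1) / 2 := by
  induction n with
  | zero => simp
  | succ k ih =>
    rw [Finset.sum_range_succ, ih]
    push_cast
    ring

theorem sum_sqrt_gram_strips (p q r : E3) (n : ℕ) (hn : 0 < n) :
    ∑ j : Fin n, Real.sqrt (gram (((((j : ℕ) : ℝ) + 1) / n) • (r - q)) ((1 / (n : ℝ)) • (q - p))) =
      (1 + 1 / (n : ℝ)) * triArea p q r := by
  have hn' : (0 : ℝ) < n := by exact_mod_cast hn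
  simp only [sqrt_gram_strip p q r n _ hn]
  rw [← Finset.sum_mul, ← Finset.sum_div,
    Fin.sum_univ_eq_sum_range (fun j => ((j : ℝ) + 1)) n, sum_range_succ_cast]
  field_simp

/-- **Strips.**  The triangle `p q r` is covered by `n` parallelograms. -/
theorem triangle_subset_strips (p q r : E3) (n : ℕ) (hn : 0 < n) :
    convexHull ℝ {p, q, r} ⊆ ⋃ j : Fin n,
      pgram (p + (((j : ℕ) : ℝ) / n) • (q - p)) (((((j : ℕ) : ℝ) + 1) / n) • (r - q))
        ((1 / (n : ℝ)) • (q - p)) := by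
  intro x hx
  rw [mem_convexHull_triple] at hx
  obtain ⟨s, t, hs, ht, hst, rfl⟩ := hx
  have hn' : (0 : ℝ) < n := by exact_mod_cast hn
  set σ : ℝ := s + t with hσ
  have hσ0 : 0 ≤ σ := by positivity
  -- the strip index
  set j : ℕ := min ⌊(n : ℝ) * σ⌋₊ (n - 1) with hj
  have hjn : j < n := by
    have : j ≤ n - 1 := min_le_right _ _
    omega
  have hj1 : (j : ℝ) ≤ n * σ := by
    have h1 : (j : ℝ) ≤ (⌊(n : ℝ) * σ⌋₊ : ℝ) := by exact_mod_cast min_le_left _ _
    exact h1.trans (Nat.floor_le (by positivity))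
  have hj2 : (n : ℝ) * σ ≤ j + 1 := by
    by_cases hc : ⌊(n : ℝ) * σ⌋₊ ≤ n - 1
    · have : j = ⌊(n : ℝ) * σ⌋₊ := min_eq_left hc
      rw [this]
      exact (Nat.lt_floor_add_one _).le
    · have hj' : j = n - 1 := min_eq_right (by omega)
      have : (j : ℝ) + 1 = n := by
        rw [hj']
        have : n - 1 + 1 = n := by omega
        exact_mod_cast this
      rw [this]
      nlinarith
  have hj0 : (0 : ℝ) < (j : ℝ) + 1 := by positivity
  rw [Set.mem_iUnion]
  refine ⟨⟨j, hjn⟩, t * n / (j + 1), ⟨by positivity, ?_⟩, n * σ - j, ⟨by linarith, by linarith⟩, ?_⟩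
  · rw [div_le_one hj0]
    have : t ≤ σ := by rw [hσ]; linarith
    nlinarith
  · show p + s • (q - p) + t • (r - p) =
      p + ((j : ℝ) / n) • (q - p) + (t * n / (j + 1)) • ((((j : ℝ) + 1) / n) • (r - q)) +
        (n * σ - j) • ((1 / (n : ℝ)) • (q - p))
    rw [smul_smul, smul_smul]
    have e1 : t * n / (j + 1) * (((j : ℝ) + 1) / n) = t := by
      field_simp
    have e2 : (n * σ - j) * (1 / (n : ℝ)) = σ - j / n := by
      field_simp
    rw [e1, e2, hσ]
    module

/-- **From triangular to parallelogram cylinders.** -/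
theorem pgram_cover_of_tri_cover (K : Set E3) (A θ : ℝ) (hθ : 0 < θ)
    (k : ℕ) (u p q r : Fin k → E3) (hu : ∀ i, ‖u i‖ = 1)
    (hperp : ∀ i, inner ℝ (p i) (u i) = 0 ∧ inner ℝ (q i) (u i) = 0 ∧ inner ℝ (r i) (u i) = 0)
    (hcover : K ⊆ ⋃ i, {x : E3 | ∃ b ∈ convexHull ℝ {p i, q i, r i}, ∃ t : ℝ, x = b + t • u i})
    (hsum : ∑ i, triArea (p i) (q i) (r i) ≤ A) :
    ∃ (k' : ℕ) (u' c a b : Fin k' → E3), (∀ i, ‖u' i‖ = 1) ∧
      (∀ i, inner ℝ (c i) (u' i) = 0 ∧ inner ℝ (a i) (u' i) = 0 ∧ inner ℝ (b i) (u' i) = 0) ∧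
      K ⊆ ⋃ i, {x : E3 | ∃ y ∈ pgram (c i) (a i) (b i), ∃ τ : ℝ, x = y + τ • u' i} ∧
      ∑ i, Real.sqrt (gram (a i) (b i)) ≤ A + θ := by
  set T : ℝ := ∑ i, triArea (p i) (q i) (r i) with hT
  have hT0 : 0 ≤ T := Finset.sum_nonneg (fun i _ => triArea_nonneg _ _ _)
  -- number of strips
  set n : ℕ := ⌈T / θ⌉₊ + 1 with hn
  have hn0 : 0 < n := by omega
  have hn' : (0 : ℝ) < n := by exact_mod_cast hn0
  have hTn : T / n ≤ θ := by
    rw [div_le_iff₀ hn']
    have h1 : T / θ ≤ (⌈T / θ⌉₊ : ℝ) := Nat.le_ceil _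
    have h2 : (n : ℝ) = (⌈T / θ⌉₊ : ℝ) + 1 := by rw [hn]; push_cast; ring
    have h3 : T ≤ (⌈T / θ⌉₊ : ℝ) * θ := by
      rw [div_le_iff₀ hθ] at h1
      exact h1
    rw [h2]
    nlinarith
  -- the data indexed by pairs
  let e : Fin (k * n) ≃ Fin k × Fin n := finProdFinEquiv.symm
  let c' : Fin k × Fin n → E3 := fun ij => p ij.1 + (((ij.2 : ℕ) : ℝ) / n) • (q ij.1 - p ij.1)
  let a' : Fin k × Fin n → E3 := fun ij => ((((ij.2 : ℕ) : ℝ) + 1) / n) • (r ij.1 - q ij.1)
  let b' : Fin k × Fin n → E3 := fun ij => (1 / (n : ℝ)) • (q ij.1 - p ij.1)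
  refine ⟨k * n, fun i => u (e i).1, fun i => c' (e i), fun i => a' (e i), fun i => b' (e i),
    fun i => hu _, ?_, ?_, ?_⟩
  · intro i
    obtain ⟨h1, h2, h3⟩ := hperp (e i).1
    refine ⟨?_, ?_, ?_⟩
    · simp only [c', inner_add_left, inner_smul_left, inner_sub_left, h1, h2]
      simp
    · simp only [a', inner_smul_left, inner_sub_left, h2, h3]
      simp
    · simp only [b', inner_smul_left, inner_sub_left, h1, h2]
      simp
  · intro x hx
    have hx' := hcover hx
    rw [Set.mem_iUnion] at hx'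
    obtain ⟨i, β, hβ, t, rfl⟩ := hx'
    have hβ' := triangle_subset_strips (p i) (q i) (r i) n hn0 hβ
    rw [Set.mem_iUnion] at hβ'
    obtain ⟨j, hj⟩ := hβ'
    rw [Set.mem_iUnion]
    refine ⟨e.symm (i, j), β, ?_, t, ?_⟩
    · simp only [Equiv.apply_symm_apply, c', a', b']
      exact hj
    · simp only [Equiv.apply_symm_apply]
  · have h1 : ∑ i : Fin (k * n), Real.sqrt (gram (a' (e i)) (b' (e i))) =
        ∑ ij : Fin k × Fin n, Real.sqrt (gram (a' ij) (b' ij)) :=
      Equiv.sum_comp e (fun ij => Real.sqrt (gram (a' ij) (b' ij)))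
    rw [h1, Fintype.sum_prod_type]
    have h2 : ∀ i : Fin k, ∑ j : Fin n, Real.sqrt (gram (a' (i, j)) (b' (i, j))) =
        (1 + 1 / (n : ℝ)) * triArea (p i) (q i) (r i) := by
      intro i
      exact sum_sqrt_gram_strips (p i) (q i) (r i) n hn0
    simp only [h2]
    rw [← Finset.mul_sum, ← hT]
    have : (1 + 1 / (n : ℝ)) * T = T + T / n := by ring
    rw [this]
    linarith

end Crest.Agent.Helper67
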