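import Crest.Agent.Helper67.Tetra.Upgrade

/-!
# Transport of cylinder covers and shadows under a similarity (row 211, helper67)

`F x = c • Q x + b₀` with `Q` a linear isometry of `E3` and `c > 0`.

* `shadow_similarity` : the shadow of `F '' K` along `Q v` has `c²` times the area of the shadow
  of `K` along `v`;
* `tri_cover_similarity` : a cover of `K` by triangular cylinders is transported to a cover of
  `F '' K`, Gram areas being multiplied by `c²`.
-/

set_option autoImplicit false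
open MeasureTheory
open scoped ENNReal Pointwise

namespace Crest.Agent.Helper67

theorem shadow_image_similarity (Q : E3 ≃ₗᵢ[ℝ] E3) (b₀ : E3) (c : ℝ) (K : Set E3) (v : E3) :
    (fun y : E3 => y - inner ℝ y (Q v) • Q v) '' ((fun x : E3 => c • Q x + b₀) '' K) =
      (fun z : E3 => (b₀ - inner ℝ b₀ (Q v) • Q v) + z) ''
        (c • (Q '' ((fun y : E3 => y - inner ℝ y v • v) '' K))) := by
  have key : ∀ x : E3, (c • Q x + b₀) - inner ℝ (c • Q x + b₀) (Q v) • Q v =
      (b₀ - inner ℝ b₀ (Q v) • Q v) + c • Q (x - inner ℝ x v • v) := by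
    intro x
    rw [inner_add_left, inner_smul_left, Q.inner_map_map, map_sub, map_smul]
    simp only [conj_trivial]
    module
  ext z
  constructor
  · rintro ⟨_, ⟨x, hx, rfl⟩, rfl⟩
    refine ⟨c • Q (x - inner ℝ x v • v), ?_, ?_⟩
    · exact Set.smul_mem_smul_set ⟨x - inner ℝ x v • v, ⟨x, hx, rfl⟩, rfl⟩
    · exact (key x).symm
  · rintro ⟨_, ⟨_, ⟨_, ⟨x, hx, rfl⟩, rfl⟩, rfl⟩, rfl⟩
    exact ⟨c • Q x + b₀, ⟨x, hx, rfl⟩, key x⟩

/-- Shadows scale by `c²` under the similarity `x ↦ c • Q x + b₀`. -/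
theorem shadow_similarity (Q : E3 ≃ₗᵢ[ℝ] E3) (b₀ : E3) (c : ℝ) (hc : 0 < c) (K : Set E3)
    (v : E3) :
    (μHE[2] ((fun y : E3 => y - inner ℝ y (Q v) • Q v) ''
        ((fun x : E3 => c • Q x + b₀) '' K))).toReal =
      c ^ 2 * (μHE[2] ((fun y : E3 => y - inner ℝ y v • v) '' K)).toReal := by
  rw [shadow_image_similarity, euclideanHausdorff_image_add_left,
    Measure.euclideanHausdorffMeasure_smul₀ 2 hc.ne', Q.isometry.euclideanHausdorffMeasure_image,
    ENNReal.toReal_smul, NNReal.smul_def]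
  simp

/-- Gram area under a similarity. -/
theorem triArea_similarity (Q : E3 ≃ₗᵢ[ℝ] E3) (d : E3) (c : ℝ) (hc : 0 < c) (p q r : E3) :
    triArea (c • Q p + d) (c • Q q + d) (c • Q r + d) = c ^ 2 * triArea p q r := by
  have h1 : (c • Q q + d) - (c • Q p + d) = c • Q (q - p) := by
    rw [map_sub]; module
  have h2 : (c • Q r + d) - (c • Q p + d) = c • Q (r - p) := by
    rw [map_sub]; module
  rw [triArea_eq, triArea_eq, h1, h2, gram_smul_smul]
  have h3 : gram (Q (q - p)) (Q (r - p)) = gram (q - p) (r - p) := by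
    unfold gram
    rw [Q.norm_map, Q.norm_map, Q.inner_map_map]
  rw [h3, Real.sqrt_mul (sq_nonneg _), Real.sqrt_sq (by positivity)]
  ring

/-- **Transport of a triangular-cylinder cover under a similarity.** -/
theorem tri_cover_similarity (Q : E3 ≃ₗᵢ[ℝ] E3) (b₀ : E3) (c : ℝ) (hc : 0 < c) (K : Set E3)
    (k : ℕ) (u p q r : Fin k → E3) (hu : ∀ i, ‖u i‖ = 1)
    (hperp : ∀ i, inner ℝ (p i) (u i) = 0 ∧ inner ℝ (q i) (u i) = 0 ∧ inner ℝ (r i) (u i) = 0)
    (hcover : K ⊆ ⋃ i, {x : E3 | ∃ b ∈ convexHull ℝ {p i, q i, r i}, ∃ t : ℝ, x = b + t • u i}) :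
    ∃ (u' p' q' r' : Fin k → E3), (∀ i, ‖u' i‖ = 1) ∧
      (∀ i, inner ℝ (p' i) (u' i) = 0 ∧ inner ℝ (q' i) (u' i) = 0 ∧
        inner ℝ (r' i) (u' i) = 0) ∧
      (fun x : E3 => c • Q x + b₀) '' K ⊆
        ⋃ i, {x : E3 | ∃ b ∈ convexHull ℝ {p' i, q' i, r' i}, ∃ t : ℝ, x = b + t • u' i} ∧
      ∀ i, triArea (p' i) (q' i) (r' i) = c ^ 2 * triArea (p i) (q i) (r i) := by
  -- the translation part of the base map for cylinder `i`
  let d : Fin k → E3 := fun i => b₀ - inner ℝ b₀ (Q (u i)) • Q (u i)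
  have hQu : ∀ i, inner ℝ (Q (u i)) (Q (u i)) = (1 : ℝ) := by
    intro i
    rw [Q.inner_map_map, real_inner_self_eq_norm_sq, hu i]
    norm_num
  have hd : ∀ i, inner ℝ (d i) (Q (u i)) = (0 : ℝ) := by
    intro i
    simp only [d, inner_sub_left, inner_smul_left, hQu i]
    simp
  have hperp' : ∀ i (z : E3), inner ℝ z (u i) = (0 : ℝ) →
      inner ℝ (c • Q z + d i) (Q (u i)) = (0 : ℝ) := by
    intro i z hz
    rw [inner_add_left, inner_smul_left, Q.inner_map_map, hz, hd i]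
    simp
  refine ⟨fun i => Q (u i), fun i => c • Q (p i) + d i, fun i => c • Q (q i) + d i,
    fun i => c • Q (r i) + d i, fun i => by rw [Q.norm_map]; exact hu i,
    fun i => ⟨hperp' i _ (hperp i).1, hperp' i _ (hperp i).2.1, hperp' i _ (hperp i).2.2⟩,
    ?_, fun i => triArea_similarity Q (d i) c hc (p i) (q i) (r i)⟩
  rintro _ ⟨x, hx, rfl⟩
  have hx' := hcover hx
  rw [Set.mem_iUnion] at hx' ⊢
  obtain ⟨i, β, hβ, t, rfl⟩ := hx'
  rw [mem_convexHull_triple] at hβ
  obtain ⟨s, τ, hs, hτ, hsτ, rfl⟩ := hβ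
  refine ⟨i, c • Q (p i + s • (q i - p i) + τ • (r i - p i)) + d i, ?_,
    c * t + inner ℝ b₀ (Q (u i)), ?_⟩
  · rw [mem_convexHull_triple]
    refine ⟨s, τ, hs, hτ, hsτ, ?_⟩
    simp only [map_add, map_smul, map_sub]
    module
  · simp only [d, map_add, map_smul, map_sub]
    module

end Crest.Agent.Helper67
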