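import Crest.Agent.Helper67.Tetra.Strips

/-!
# From a parallelogram-cylinder cover to the two clauses of S0327 (row 211, helper67)

`K` is an arbitrary subset of `E3` all of whose shadows have area at least `m > 0`.

* `part1_of_pgram_cover` : clause (1) of S0327 for `K` from a parallelogram cover of total Gram
  area `≤ m/2 - γ`;
* `part2_of_pgram_cover` : clause (2) (bounded relatively open bases) from the same data;
* `both_of_tri_cover` : both clauses from a cover by triangular cylinders of total Gram area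
  `≤ m/2 - γ`.
-/

set_option autoImplicit false
open MeasureTheory
open scoped ENNReal

namespace Crest.Agent.Helper67

/-- Clause (1) of S0327 for a set `K` with shadows of area `≥ m`. -/
theorem part1_of_pgram_cover (K : Set E3) (m γ : ℝ) (hm : 0 < m) (hγ : 0 < γ)
    (hshadow : ∀ v : E3, ‖v‖ = 1 →
      m ≤ (μHE[2] ((fun y => y - inner ℝ y v • v) '' K)).toReal)
    (k : ℕ) (u c a b : Fin k → E3) (hu : ∀ i, ‖u i‖ = 1)
    (hperp : ∀ i, inner ℝ (c i) (u i) = 0 ∧ inner ℝ (a i) (u i) = 0 ∧ inner ℝ (b i) (u i) = 0)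
    (hcover : K ⊆ ⋃ i, {x : E3 | ∃ y ∈ pgram (c i) (a i) (b i), ∃ τ : ℝ, x = y + τ • u i})
    (hsum : ∑ i, Real.sqrt (gram (a i) (b i)) ≤ m / 2 - γ) :
    ∃ (k : ℕ) (u c a b : Fin k → EuclideanSpace ℝ (Fin 3)),
      (∀ i, ‖u i‖ = 1) ∧
      (∀ i, inner ℝ (c i) (u i) = 0 ∧ inner ℝ (a i) (u i) = 0 ∧ inner ℝ (b i) (u i) = 0) ∧
      K ⊆ ⋃ i, {x : EuclideanSpace ℝ (Fin 3) |
        ∃ s ∈ Set.Icc (0 : ℝ) 1, ∃ t ∈ Set.Icc (0 : ℝ) 1, ∃ τ : ℝ,
          x = c i + s • a i + t • b i + τ • u i} ∧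
      (∃ δ : ℝ, 0 < δ ∧ ∀ v : EuclideanSpace ℝ (Fin 3), ‖v‖ = 1 →
        (∑ i, (μHE[2] {x : EuclideanSpace ℝ (Fin 3) |
            ∃ s ∈ Set.Icc (0 : ℝ) 1, ∃ t ∈ Set.Icc (0 : ℝ) 1,
              x = c i + s • a i + t • b i}).toReal) + δ ≤
          (μHE[2] ((fun y => y - inner ℝ y v • v) '' K)).toReal / 2) ∧
      ∑ i, (μHE[2] {x : EuclideanSpace ℝ (Fin 3) |
            ∃ s ∈ Set.Icc (0 : ℝ) 1, ∃ t ∈ Set.Icc (0 : ℝ) 1,
              x = c i + s • a i + t • b i}).toReal /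
          (μHE[2] ((fun y => y - inner ℝ y (u i) • u i) '' K)).toReal < 1 / 2 := by
  have harea : ∀ i, (μHE[2] {x : EuclideanSpace ℝ (Fin 3) |
      ∃ s ∈ Set.Icc (0 : ℝ) 1, ∃ t ∈ Set.Icc (0 : ℝ) 1,
        x = c i + s • a i + t • b i}).toReal = Real.sqrt (gram (a i) (b i)) := fun i =>
    pgram_area_toReal (u i) (hu i) (c i) (a i) (b i) (hperp i).2.1 (hperp i).2.2
  refine ⟨k, u, c, a, b, hu, hperp, ?_, ⟨γ, hγ, ?_⟩, ?_⟩
  · intro x hx
    have hx' := hcover hx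
    rw [Set.mem_iUnion] at hx' ⊢
    obtain ⟨i, y, ⟨s, hs, t, ht, rfl⟩, τ, rfl⟩ := hx'
    exact ⟨i, s, hs, t, ht, τ, rfl⟩
  · intro v hv
    simp only [harea]
    have := hshadow v hv
    linarith
  · simp only [harea]
    have h1 : ∀ i : Fin k, Real.sqrt (gram (a i) (b i)) /
        (μHE[2] ((fun y => y - inner ℝ y (u i) • u i) '' K)).toReal ≤
        Real.sqrt (gram (a i) (b i)) / m := by
      intro i
      exact div_le_div_of_nonneg_left (Real.sqrt_nonneg _) hm (hshadow (u i) (hu i))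
    calc ∑ i, Real.sqrt (gram (a i) (b i)) /
          (μHE[2] ((fun y => y - inner ℝ y (u i) • u i) '' K)).toReal
        ≤ ∑ i, Real.sqrt (gram (a i) (b i)) / m := Finset.sum_le_sum (fun i _ => h1 i)
      _ = (∑ i, Real.sqrt (gram (a i) (b i))) / m := by rw [Finset.sum_div]
      _ ≤ (m / 2 - γ) / m := by gcongr
      _ < 1 / 2 := by
        rw [div_lt_iff₀ hm]
        linarith

/-- Clause (2) of S0327 for a set `K` with shadows of area `≥ m`. -/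
theorem part2_of_pgram_cover (K : Set E3) (m γ : ℝ) (hm : 0 < m) (hγ : 0 < γ)
    (hshadow : ∀ v : E3, ‖v‖ = 1 →
      m ≤ (μHE[2] ((fun y => y - inner ℝ y v • v) '' K)).toReal)
    (k : ℕ) (u c a b : Fin k → E3) (hu : ∀ i, ‖u i‖ = 1)
    (hperp : ∀ i, inner ℝ (c i) (u i) = 0 ∧ inner ℝ (a i) (u i) = 0 ∧ inner ℝ (b i) (u i) = 0)
    (hcover : K ⊆ ⋃ i, {x : E3 | ∃ y ∈ pgram (c i) (a i) (b i), ∃ τ : ℝ, x = y + τ • u i})
    (hsum : ∑ i, Real.sqrt (gram (a i) (b i)) ≤ m / 2 - γ) :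
    ∃ (k : ℕ) (u : Fin k → EuclideanSpace ℝ (Fin 3))
      (B : Fin k → Set (EuclideanSpace ℝ (Fin 3))),
      (∀ i, ‖u i‖ = 1) ∧
      (∀ i, Bornology.IsBounded (B i) ∧ ∃ O : Set (EuclideanSpace ℝ (Fin 3)), IsOpen O ∧
        B i = O ∩ {x | inner ℝ x (u i) = 0}) ∧
      K ⊆ ⋃ i, {x : EuclideanSpace ℝ (Fin 3) | ∃ y ∈ B i, ∃ τ : ℝ, x = y + τ • u i} ∧
      (∃ δ : ℝ, 0 < δ ∧ ∀ v : EuclideanSpace ℝ (Fin 3), ‖v‖ = 1 →
        (∑ i, (μHE[2] (B i)).toReal) + δ ≤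
          (μHE[2] ((fun y => y - inner ℝ y v • v) '' K)).toReal / 2) ∧
      ∑ i, (μHE[2] (B i)).toReal /
          (μHE[2] ((fun y => y - inner ℝ y (u i) • u i) '' K)).toReal < 1 / 2 := by
  -- enlargement allowance per cylinder
  set θ : ℝ := γ / (2 * ((k : ℝ) + 1)) with hθ
  have hk1 : (0 : ℝ) < (k : ℝ) + 1 := by positivity
  have hθ0 : 0 < θ := by positivity
  have hkθ : (k : ℝ) * θ ≤ γ / 2 := by
    rw [hθ]
    have : (k : ℝ) * (γ / (2 * ((k : ℝ) + 1))) = (γ / 2) * ((k : ℝ) / ((k : ℝ) + 1)) := by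
      field_simp
    rw [this]
    have h1 : (k : ℝ) / ((k : ℝ) + 1) ≤ 1 := by
      rw [div_le_one hk1]
      linarith
    nlinarith
  have hex : ∀ i : Fin k, ∃ O : Set E3, IsOpen O ∧
      Bornology.IsBounded (O ∩ {x : E3 | inner ℝ x (u i) = 0}) ∧
      pgram (c i) (a i) (b i) ⊆ O ∩ {x : E3 | inner ℝ x (u i) = 0} ∧
      μHE[2] (O ∩ {x : E3 | inner ℝ x (u i) = 0}) ≠ ⊤ ∧
      (μHE[2] (O ∩ {x : E3 | inner ℝ x (u i) = 0})).toReal ≤
        (μHE[2] (pgram (c i) (a i) (b i))).toReal + θ := fun i =>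
    exists_open_base (u i) (hu i) _ (isCompact_pgram _ _ _)
      (pgram_subset_perp (u i) (c i) (a i) (b i) (hperp i).1 (hperp i).2.1 (hperp i).2.2) θ hθ0
  choose O hOo hOb hOsub _hOfin hOle using hex
  have harea : ∀ i, (μHE[2] (pgram (c i) (a i) (b i))).toReal = Real.sqrt (gram (a i) (b i)) :=
    fun i => pgram_area_toReal (u i) (hu i) (c i) (a i) (b i) (hperp i).2.1 (hperp i).2.2
  have hB : ∀ i, (μHE[2] (O i ∩ {x : E3 | inner ℝ x (u i) = 0})).toReal ≤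
      Real.sqrt (gram (a i) (b i)) + θ := by
    intro i
    rw [← harea i]
    exact hOle i
  have hBsum : ∑ i, (μHE[2] (O i ∩ {x : E3 | inner ℝ x (u i) = 0})).toReal ≤ m / 2 - γ / 2 := by
    calc ∑ i, (μHE[2] (O i ∩ {x : E3 | inner ℝ x (u i) = 0})).toReal
        ≤ ∑ i : Fin k, (Real.sqrt (gram (a i) (b i)) + θ) := Finset.sum_le_sum (fun i _ => hB i)
      _ = (∑ i, Real.sqrt (gram (a i) (b i))) + (k : ℝ) * θ := by
        rw [Finset.sum_add_distrib]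
        simp
      _ ≤ m / 2 - γ / 2 := by linarith
  have hB0 : ∀ i, 0 ≤ (μHE[2] (O i ∩ {x : E3 | inner ℝ x (u i) = 0})).toReal :=
    fun i => ENNReal.toReal_nonneg
  refine ⟨k, u, fun i => O i ∩ {x : E3 | inner ℝ x (u i) = 0}, hu,
    fun i => ⟨hOb i, O i, hOo i, rfl⟩, ?_, ⟨γ / 2, by positivity, ?_⟩, ?_⟩
  · intro x hx
    have hx' := hcover hx
    rw [Set.mem_iUnion] at hx' ⊢
    obtain ⟨i, y, hy, τ, rfl⟩ := hx'
    exact ⟨i, y, hOsub i hy, τ, rfl⟩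
  · intro v hv
    have := hshadow v hv
    linarith
  · have h1 : ∀ i : Fin k, (μHE[2] (O i ∩ {x : E3 | inner ℝ x (u i) = 0})).toReal /
        (μHE[2] ((fun y => y - inner ℝ y (u i) • u i) '' K)).toReal ≤
        (μHE[2] (O i ∩ {x : E3 | inner ℝ x (u i) = 0})).toReal / m := by
      intro i
      exact div_le_div_of_nonneg_left (hB0 i) hm (hshadow (u i) (hu i))
    calc ∑ i, (μHE[2] (O i ∩ {x : E3 | inner ℝ x (u i) = 0})).toReal /
          (μHE[2] ((fun y => y - inner ℝ y (u i) • u i) '' K)).toReal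
        ≤ ∑ i, (μHE[2] (O i ∩ {x : E3 | inner ℝ x (u i) = 0})).toReal / m :=
          Finset.sum_le_sum (fun i _ => h1 i)
      _ = (∑ i, (μHE[2] (O i ∩ {x : E3 | inner ℝ x (u i) = 0})).toReal) / m := by
        rw [Finset.sum_div]
      _ ≤ (m / 2 - γ / 2) / m := by gcongr
      _ < 1 / 2 := by
        rw [div_lt_iff₀ hm]
        linarith

/-- Both clauses of S0327 for `K` from a cover by triangular cylinders of total Gram area
`≤ m/2 - γ`, when all shadows of `K` have area `≥ m`. -/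
theorem both_of_tri_cover (K : Set E3) (m γ : ℝ) (hm : 0 < m) (hγ : 0 < γ)
    (hshadow : ∀ v : E3, ‖v‖ = 1 →
      m ≤ (μHE[2] ((fun y => y - inner ℝ y v • v) '' K)).toReal)
    (k : ℕ) (u p q r : Fin k → E3) (hu : ∀ i, ‖u i‖ = 1)
    (hperp : ∀ i, inner ℝ (p i) (u i) = 0 ∧ inner ℝ (q i) (u i) = 0 ∧ inner ℝ (r i) (u i) = 0)
    (hcover : K ⊆ ⋃ i, {x : E3 | ∃ b ∈ convexHull ℝ {p i, q i, r i}, ∃ t : ℝ, x = b + t • u i})
    (hsum : ∑ i, triArea (p i) (q i) (r i) ≤ m / 2 - γ) :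
    (∃ (k : ℕ) (u c a b : Fin k → EuclideanSpace ℝ (Fin 3)),
      (∀ i, ‖u i‖ = 1) ∧
      (∀ i, inner ℝ (c i) (u i) = 0 ∧ inner ℝ (a i) (u i) = 0 ∧ inner ℝ (b i) (u i) = 0) ∧
      K ⊆ ⋃ i, {x : EuclideanSpace ℝ (Fin 3) |
        ∃ s ∈ Set.Icc (0 : ℝ) 1, ∃ t ∈ Set.Icc (0 : ℝ) 1, ∃ τ : ℝ,
          x = c i + s • a i + t • b i + τ • u i} ∧
      (∃ δ : ℝ, 0 < δ ∧ ∀ v : EuclideanSpace ℝ (Fin 3), ‖v‖ = 1 →
        (∑ i, (μHE[2] {x : EuclideanSpace ℝ (Fin 3) |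
            ∃ s ∈ Set.Icc (0 : ℝ) 1, ∃ t ∈ Set.Icc (0 : ℝ) 1,
              x = c i + s • a i + t • b i}).toReal) + δ ≤
          (μHE[2] ((fun y => y - inner ℝ y v • v) '' K)).toReal / 2) ∧
      ∑ i, (μHE[2] {x : EuclideanSpace ℝ (Fin 3) |
            ∃ s ∈ Set.Icc (0 : ℝ) 1, ∃ t ∈ Set.Icc (0 : ℝ) 1,
              x = c i + s • a i + t • b i}).toReal /
          (μHE[2] ((fun y => y - inner ℝ y (u i) • u i) '' K)).toReal < 1 / 2) ∧
    (∃ (k : ℕ) (u : Fin k → EuclideanSpace ℝ (Fin 3))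
      (B : Fin k → Set (EuclideanSpace ℝ (Fin 3))),
      (∀ i, ‖u i‖ = 1) ∧
      (∀ i, Bornology.IsBounded (B i) ∧ ∃ O : Set (EuclideanSpace ℝ (Fin 3)), IsOpen O ∧
        B i = O ∩ {x | inner ℝ x (u i) = 0}) ∧
      K ⊆ ⋃ i, {x : EuclideanSpace ℝ (Fin 3) | ∃ y ∈ B i, ∃ τ : ℝ, x = y + τ • u i} ∧
      (∃ δ : ℝ, 0 < δ ∧ ∀ v : EuclideanSpace ℝ (Fin 3), ‖v‖ = 1 →
        (∑ i, (μHE[2] (B i)).toReal) + δ ≤
          (μHE[2] ((fun y => y - inner ℝ y v • v) '' K)).toReal / 2) ∧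
      ∑ i, (μHE[2] (B i)).toReal /
          (μHE[2] ((fun y => y - inner ℝ y (u i) • u i) '' K)).toReal < 1 / 2) := by
  obtain ⟨k', u', c, a, b, hu', hperp', hcover', hsum'⟩ :=
    pgram_cover_of_tri_cover K (m / 2 - γ) (γ / 2) (by positivity) k u p q r hu hperp hcover hsum
  have hsum'' : ∑ i, Real.sqrt (gram (a i) (b i)) ≤ m / 2 - γ / 2 := by linarith
  exact ⟨part1_of_pgram_cover K m (γ / 2) hm (by positivity) hshadow k' u' c a b hu' hperp'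
      hcover' hsum'',
    part2_of_pgram_cover K m (γ / 2) hm (by positivity) hshadow k' u' c a b hu' hperp'
      hcover' hsum''⟩

end Crest.Agent.Helper67
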